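import Mathlib

namespace Vale.Agent.P037

/-- The rows `r` and columns `c` form an ordered copy of `H` in `A`. -/
def IsCopy {k n : ℕ} (H : Fin k → Fin k → Bool) (A : Fin n → Fin n → Bool)
    (r c : Fin k → Fin n) : Prop :=
  StrictMono r ∧ StrictMono c ∧ ∀ i j, A (r i) (c j) = H i j

open Classical in
/-- The number of ordered copies of `H` in `A`. -/
noncomputable def numCopies {k n : ℕ} (H : Fin k → Fin k → Bool) (A : Fin n → Fin n → Bool) : ℕ :=
  (Finset.univ.filter fun q : (Fin k → Fin n) × (Fin k → Fin n) => IsCopy H A q.1 q.2).card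

/-- The number of entries in which `A` and `B` differ. -/
def numDiff {n : ℕ} (A B : Fin n → Fin n → Bool) : ℕ :=
  (Finset.univ.filter fun q : Fin n × Fin n => A q.1 q.2 ≠ B q.1 q.2).card

/-- The normalised distance of `A` from being `H`-free. -/
noncomputable def distFree {k n : ℕ} (H : Fin k → Fin k → Bool) (A : Fin n → Fin n → Bool) : ℝ :=
  ((sInf {d : ℕ | ∃ B : Fin n → Fin n → Bool, numCopies H B = 0 ∧ d = numDiff A B} : ℕ) : ℝ) /
    (n : ℝ) ^ 2

/-- The 5 by 5 pattern whose only zero entries are at (0,1), (1,0) and (3,3). -/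
def pat (i j : Fin 5) : Bool :=
  !(decide ((i = 0 ∧ j = 1) ∨ (i = 1 ∧ j = 0) ∨ (i = 3 ∧ j = 3)))

end Vale.Agent.P037
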