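import Vale.Agent.P037.Tree

namespace Vale.Agent.P037

variable {K : ℕ}

def lev (K : ℕ) (p : P) : ℕ := if p.c = 2 then p.s else K + 1

def prof (K : ℕ) (g b : P) : Prop :=
  lev K b = g.s ∨ (lev K b = g.s + 1 ∧ (lab K b = g.l ∨ g.s = K))

def gg (K : ℕ) (g h : P) : Prop := h.s = g.t ∧ h.l = g.m ∧ h.t = g.s ∧ h.m = g.l ∧
  ((g.s < K ∧ g.t < K ∧ (g.s ≠ g.t ∨ g.l = g.m)) ∨ (g.s = K ∧ g.t = K))

def bb (K : ℕ) (p q : P) : Prop :=
  if p.c = 2 then (if q.c = 2 then Cmp K p q else p.s = K)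
  else if q.c = 2 then q.s = K else ¬ (p.c = 3 ∧ q.c = 3)

def ent (K : ℕ) (p q : P) : Prop :=
  if p.c = 0 then q.c ≠ 1 else if q.c = 0 then p.c ≠ 1
  else if p.c = 1 then (if q.c = 1 then gg K p q else prof K p q)
  else if q.c = 1 then prof K q p else bb K p q

lemma gg_symm {g h : P} (a : gg K g h) : gg K h g := by
  obtain ⟨a, b, c, d, e⟩ := a
  refine ⟨c.symm, d.symm, a.symm, b.symm, ?_⟩
  rw [a, b, c, d]
  tauto

lemma ent_comm (p q : P) : ent K p q ↔ ent K q p := by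
  have h1 : gg K p q ↔ gg K q p := ⟨gg_symm, gg_symm⟩
  have h2 : Cmp K p q ↔ Cmp K q p := ⟨Cmp.symm, Cmp.symm⟩
  unfold ent bb
  by_cases a : p.c = 0 <;> by_cases b : q.c = 0 <;> by_cases c : p.c = 1 <;>
    by_cases d : q.c = 1 <;> by_cases e : p.c = 2 <;> by_cases f : q.c = 2 <;>
    first | omega | simp [a, b, c, d, e, f, h1, h2, and_comm]

lemma ent_Y {p q : P} (h : p.c = 0) : ent K p q ↔ q.c ≠ 1 := by simp [ent, h]
lemma ent_Y' {p q : P} (h : q.c = 0) : ent K p q ↔ p.c ≠ 1 := by rw [ent_comm, ent_Y h]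
lemma ent_GG {p q : P} (h : p.c = 1) (h' : q.c = 1) : ent K p q ↔ gg K p q := by
  simp [ent, h, h']
lemma ent_Gb {p q : P} (h : p.c = 1) (h' : 2 ≤ q.c) : ent K p q ↔ prof K p q := by
  simp [ent, h, show q.c ≠ 0 by omega, show q.c ≠ 1 by omega]
lemma ent_bG {p q : P} (h : 2 ≤ p.c) (h' : q.c = 1) : ent K p q ↔ prof K q p := by
  rw [ent_comm, ent_Gb h' h]
lemma ent_TT {p q : P} (h : p.c = 2) (h' : q.c = 2) : ent K p q ↔ Cmp K p q := by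
  simp [ent, bb, h, h']
lemma ent_Ta {p q : P} (h : p.c = 2) (h' : 3 ≤ q.c) : ent K p q ↔ p.s = K := by
  simp [ent, bb, h, show q.c ≠ 0 by omega, show q.c ≠ 1 by omega, show q.c ≠ 2 by omega]
lemma ent_aT {p q : P} (h : 3 ≤ p.c) (h' : q.c = 2) : ent K p q ↔ q.s = K := by
  rw [ent_comm, ent_Ta h' h]
lemma ent_aa {p q : P} (h : 3 ≤ p.c) (h' : 3 ≤ q.c) : ent K p q ↔ ¬ (p.c = 3 ∧ q.c = 3) := by
  simp [ent, bb, show q.c ≠ 0 by omega, show q.c ≠ 1 by omega, show q.c ≠ 2 by omega,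
    show p.c ≠ 0 by omega, show p.c ≠ 1 by omega, show p.c ≠ 2 by omega]

lemma same_a {p p' q : P} (h : 3 ≤ p.c) (h' : p'.c = p.c) (hp : p.s ≤ K) (hq : q.s ≤ K)
    (e : ent K p q) : ent K p' q := by
  rcases (by omega : q.c = 0 ∨ q.c = 1 ∨ q.c = 2 ∨ 3 ≤ q.c) with g | g | g | g
  · rw [ent_Y' g]; omega
  · rw [ent_bG (by omega) g] at e ⊢
    simp only [prof, lev, show p.c ≠ 2 by omega, show p'.c ≠ 2 by omega, if_false] at e ⊢
    omega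
  · rw [ent_aT (by omega) g] at e ⊢; exact e
  · rw [ent_aa (by omega) g] at e ⊢; rwa [h']

lemma same_G {p p' q u : P} (h : p.c = 1) (h' : p'.c = 1) (hu : u.c = 1) (e1 : ent K p u)
    (e2 : ent K p' u) (e : ent K p q) : ent K p' q := by
  rw [ent_GG h hu] at e1
  rw [ent_GG h' hu] at e2
  have a : p'.s = p.s := e2.2.2.1.symm.trans e1.2.2.1
  have b : p'.l = p.l := e2.2.2.2.1.symm.trans e1.2.2.2.1
  have c : p'.t = p.t := e2.1.symm.trans e1.1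
  have d : p'.m = p.m := e2.2.1.symm.trans e1.2.1
  simp only [ent, h, h', gg, prof, a, b, c, d] at e ⊢
  exact e

lemma prof_ne {g h c : P} (a : prof K g c) (b : ¬ prof K h c) :
    g.s ≠ h.s ∨ (g.l ≠ h.l ∧ g.s ≠ K) := by
  by_contra k
  push Not at k
  apply b
  unfold prof at a ⊢
  rw [← k.1]
  by_cases e : g.l = h.l
  · rwa [← e]
  · have := k.2 e
    tauto

lemma prof_two {g h c : P} (D : g.s ≠ h.s ∨ (g.l ≠ h.l ∧ g.s ≠ K)) (a : prof K g c)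
    (b : prof K h c) : lev K c = max g.s h.s := by
  unfold prof at a b
  rcases D with D | ⟨D, D'⟩
  · omega
  · rcases a with a | ⟨a, a' | a'⟩ <;> rcases b with b | ⟨b, b' | b'⟩ <;>
      first | omega | exact absurd (a'.symm.trans b') D

lemma prof_three {g h k c c' : P} (D1 : g.s ≠ h.s ∨ (g.l ≠ h.l ∧ g.s ≠ K))
    (D2 : k.s ≠ g.s ∨ (k.l ≠ g.l ∧ k.s ≠ K)) (D3 : k.s ≠ h.s ∨ (k.l ≠ h.l ∧ k.s ≠ K))
    (hg : g.s ≤ K) (hh : h.s ≤ K) (a : prof K g c) (b : prof K h c) (d : prof K k c)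
    (a' : prof K g c') (b' : prof K h c') (d' : prof K k c') :
    lev K c = lev K c' ∧ lab K c = lab K c' ∧ lev K c < K := by
  have e1 := prof_two D1 a b
  have e2 := prof_two D2 d a
  have e3 := prof_two D3 d b
  have e4 := prof_two D1 a' b'
  have z : ∀ u : P, prof K u c → prof K u c' → u.s ≠ lev K c → lab K c = lab K c' := by
    intro u p p' n
    unfold prof at p p'
    rcases p with p | ⟨p, q | q⟩ <;> rcases p' with p' | ⟨p', q' | q'⟩ <;>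
      first | omega | exact q.trans q'.symm
  refine ⟨by omega, ?_, by omega⟩
  by_cases n1 : g.s = lev K c
  · by_cases n2 : h.s = lev K c
    · refine z k d d' fun n3 => ?_
      have x1 := (D1.resolve_left (by omega)).1
      have x2 := (D2.resolve_left (by omega)).1
      have x3 := (D3.resolve_left (by omega)).1
      revert x1 x2 x3
      cases g.l <;> cases h.l <;> cases k.l <;> simp
    · exact z h b b' n2
  · exact z g a a' n1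

def Le (K : ℕ) (p q : P) : Prop := p.c ≤ q.c ∧ (p.c = q.c → tk K p ≤ tk K q)

structure Copy (K : ℕ) (r0 r1 r2 r3 r4 c0 c1 c2 c3 c4 : P) : Prop where
  ok : r0.s ≤ K ∧ r1.s ≤ K ∧ r2.s ≤ K ∧ r3.s ≤ K ∧ r4.s ≤ K ∧ r4.c ≤ 4
  ok' : c0.s ≤ K ∧ c1.s ≤ K ∧ c2.s ≤ K ∧ c3.s ≤ K ∧ c4.s ≤ K ∧ c4.c ≤ 4
  le : Le K r0 r1 ∧ Le K r1 r2 ∧ Le K r2 r3 ∧ Le K r3 r4
  le' : Le K c0 c1 ∧ Le K c1 c2 ∧ Le K c2 c3 ∧ Le K c3 c4
  e0 : ent K r0 c0 ∧ ¬ ent K r0 c1 ∧ ent K r0 c2 ∧ ent K r0 c3 ∧ ent K r0 c4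
  e1 : ¬ ent K r1 c0 ∧ ent K r1 c1 ∧ ent K r1 c2 ∧ ent K r1 c3 ∧ ent K r1 c4
  e2 : ent K r2 c0 ∧ ent K r2 c1 ∧ ent K r2 c2 ∧ ent K r2 c3 ∧ ent K r2 c4
  e3 : ent K r3 c0 ∧ ent K r3 c1 ∧ ent K r3 c2 ∧ ¬ ent K r3 c3 ∧ ent K r3 c4
  e4 : ent K r4 c0 ∧ ent K r4 c1 ∧ ent K r4 c2 ∧ ent K r4 c3 ∧ ent K r4 c4

variable {r0 r1 r2 r3 r4 c0 c1 c2 c3 c4 : P}

lemma Copy.symm (h : Copy K r0 r1 r2 r3 r4 c0 c1 c2 c3 c4) :
    Copy K c0 c1 c2 c3 c4 r0 r1 r2 r3 r4 := by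
  obtain ⟨a, b, c, d, e0, e1, e2, e3, e4⟩ := h
  refine ⟨b, a, d, c, ?_, ?_, ?_, ?_, ?_⟩ <;>
    simp only [ent_comm c0, ent_comm c1, ent_comm c2, ent_comm c3, ent_comm c4] <;> tauto

lemma Copy.cls (h : Copy K r0 r1 r2 r3 r4 c0 c1 c2 c3 c4) :
    1 ≤ r1.c ∧ r2.c ≤ 2 ∧ r3.c ≤ 3 := by
  obtain ⟨⟨a0, a1, a2, a3, a4, a5⟩, b, ⟨l0, l1, l2, l3⟩, d, e0, e1, e2, e3, e4⟩ := h
  have l0 := l0.1
  have l2 := l2.1
  have l3 := l3.1
  have k3 : r3.c ≤ 3 := by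
    by_contra g
    exact e3.2.2.2.1 (same_a (by omega) (by omega) a4 b.2.2.2.1 e4.2.2.2.1)
  refine ⟨?_, ?_, k3⟩
  · by_contra g
    exact e1.1 ((ent_Y (by omega)).2 ((ent_Y (by omega)).1 e0.1))
  · by_contra g
    exact e3.2.2.2.1 (same_a (by omega) (by omega) a2 b.2.2.2.1 e2.2.2.2.1)

lemma Copy.r2T (h : Copy K r0 r1 r2 r3 r4 c0 c1 c2 c3 c4) : r2.c = 2 := by
  obtain ⟨k1, k2, k3⟩ := h.cls
  obtain ⟨k1', k2', k3'⟩ := h.symm.cls
  obtain ⟨⟨a0, a1, a2, a3, a4, a5⟩, ⟨b0, b1, b2, b3, b4, b5⟩, ⟨l0, l1, l2, l3⟩,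
    ⟨m0, m1, m2, m3⟩, e0, e1, e2, e3, e4⟩ := h
  have := l0.1; have := l1.1; have := l2.1; have := m0.1; have := m1.1; have := m2.1
  have := m3.1
  by_contra g
  have g2 : r2.c = 1 := by omega
  have g1 : r1.c = 1 := by omega
  have d1 : 2 ≤ c1.c := by
    by_contra g
    exact e1.1 (same_G g2 g1 (by omega) e2.2.1 e1.2.1 e2.1)
  have g0 : r0.c = 1 := by
    by_contra g
    exact e0.2.1 ((ent_Y (by omega)).2 (by omega))
  have d0 : 2 ≤ c0.c := by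
    by_contra g
    rcases (by omega : c0.c = 0 ∨ c0.c = 1) with g | g
    · exact (ent_Y' g).1 e2.1 g2
    · exact e0.2.1 (same_G g2 g0 g e2.1 e0.1 e2.2.1)
  rw [ent_Gb g0 d0, ent_Gb g0 d1, ent_Gb g0 (by omega), ent_Gb g0 (by omega),
    ent_Gb g0 (by omega)] at e0
  rw [ent_Gb g1 d0, ent_Gb g1 d1, ent_Gb g1 (by omega), ent_Gb g1 (by omega),
    ent_Gb g1 (by omega)] at e1
  rw [ent_Gb g2 d0, ent_Gb g2 d1, ent_Gb g2 (by omega), ent_Gb g2 (by omega),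
    ent_Gb g2 (by omega)] at e2
  have key : ∀ c : P, prof K r0 c → prof K r1 c → prof K r2 c →
      lev K c = lev K c2 ∧ lab K c = lab K c2 ∧ lev K c < K := by
    intro c p0 p1 p2
    exact prof_three (prof_ne e0.1 e1.1) (prof_ne e2.2.1 e0.2.1) (prof_ne e2.1 e1.1) a0 a1
      p0 p1 p2 e0.2.2.1 e1.2.2.1 e2.2.2.1
  obtain ⟨-, -, u2⟩ := key c2 e0.2.2.1 e1.2.2.1 e2.2.2.1
  obtain ⟨v3, w3, u3⟩ := key c3 e0.2.2.2.1 e1.2.2.2.1 e2.2.2.2.1
  obtain ⟨v4, -, u4⟩ := key c4 e0.2.2.2.2 e1.2.2.2.2 e2.2.2.2.2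
  have t2 : c2.c = 2 := by by_contra g; simp [lev, g] at u2
  have t3 : c3.c = 2 := by by_contra g; simp [lev, g] at u3
  have t4 : c4.c = 2 := by by_contra g; simp [lev, g] at u4
  apply e3.2.2.2.1
  obtain ⟨-, -, f2, -, f4⟩ := e3
  rcases (by omega : r3.c = 1 ∨ r3.c = 2 ∨ 3 ≤ r3.c) with g | g | g
  · rw [ent_Gb g (by omega)] at f2 ⊢
    unfold prof at f2 ⊢
    rwa [v3, w3]
  · rw [ent_TT g (by omega)] at f2 f4 ⊢
    simp only [lev, t2, t3, t4, if_true] at v3 v4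
    exact same_lev a3 b2 v3 v4 (m2.2 (by omega)) (m3.2 (by omega)) f2 f4
  · rw [ent_aT g (by omega)] at f2 ⊢
    simp only [lev, t2, t3, if_true] at v3
    omega

lemma rare_of {p q : P} (h : Cmp K p q) (hp : p.s = K) (hq : q.s = K) : p.x = q.x := by
  rcases h with h | h
  · simpa [hp] using h.2
  · simpa [hq] using h.2.symm

lemma Copy.r3T (h : Copy K r0 r1 r2 r3 r4 c0 c1 c2 c3 c4) (n : r2.x ≠ c2.x) : r3.c = 2 := by
  obtain ⟨k1, k2, k3⟩ := h.cls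
  obtain ⟨k1', k2', k3'⟩ := h.symm.cls
  have t := h.r2T
  have t' := h.symm.r2T
  obtain ⟨⟨a0, a1, a2, a3, a4, a5⟩, ⟨b0, b1, b2, b3, b4, b5⟩, ⟨l0, l1, l2, l3⟩,
    ⟨m0, m1, m2, m3⟩, e0, e1, e2, e3, e4⟩ := h
  have := l2.1; have := l3.1; have := m2.1
  by_contra g
  have s1 := (ent_aT (by omega) t').1 e3.2.2.1
  rcases (by omega : c3.c = 2 ∨ 3 ≤ c3.c) with g' | g'
  · exact e3.2.2.2.1 ((ent_aT (by omega) g').2 ((ent_aT (by omega) g').1 e4.2.2.2.1))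
  · exact n (rare_of ((ent_TT t t').1 e2.2.2.1) ((ent_Ta t g').1 e2.2.2.2.1) s1)

lemma Copy.r4T (h : Copy K r0 r1 r2 r3 r4 c0 c1 c2 c3 c4) (n : r2.x ≠ c2.x) : r4.c = 2 := by
  have t := h.r2T
  have t' := h.symm.r2T
  have u := h.r3T n
  have u' := h.symm.r3T n.symm
  obtain ⟨⟨a0, a1, a2, a3, a4, a5⟩, ⟨b0, b1, b2, b3, b4, b5⟩, ⟨l0, l1, l2, l3⟩,
    ⟨m0, m1, m2, m3⟩, e0, e1, e2, e3, e4⟩ := h
  have := l3.1; have := m3.1
  by_contra g
  have s2 := (ent_aT (by omega) t').1 e4.2.2.1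
  have s3 := (ent_aT (by omega) u').1 e4.2.2.2.1
  rcases (by omega : c4.c = 2 ∨ 3 ≤ c4.c) with g' | g'
  · have s4 := (ent_aT (by omega) g').1 e4.2.2.2.2
    exact e3.2.2.2.1 ((ent_TT u u').2 (same_lev a3 b2 (by omega) (by omega) (m2.2 (by omega))
      (m3.2 (by omega)) ((ent_TT u t').1 e3.2.2.1) ((ent_TT u g').1 e3.2.2.2.2)))
  · exact n (rare_of ((ent_TT t t').1 e2.2.2.1) ((ent_Ta t g').1 e2.2.2.2.2) s2)

lemma Copy.valid (h : Copy K r0 r1 r2 r3 r4 c0 c1 c2 c3 c4) (n : r2.x ≠ c2.x) {g g' : P}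
    (hg : g.c = 1) (hg' : g'.c = 1) (f : ent K g g') (f2 : ent K g c2) (f3 : ent K g c3)
    (f4 : ent K g c4) (g2 : ent K r2 g') (g3 : ent K r3 g') (g4 : ent K r4 g') : False := by
  have t := h.r2T
  have t' := h.symm.r2T
  have u := h.r3T n
  have u' := h.symm.r3T n.symm
  have v := h.r4T n
  have v' := h.symm.r4T n.symm
  obtain ⟨⟨a0, a1, a2, a3, a4, a5⟩, ⟨b0, b1, b2, b3, b4, b5⟩, ⟨l0, l1, l2, l3⟩,
    ⟨m0, m1, m2, m3⟩, e0, e1, e2, e3, e4⟩ := h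
  rw [ent_GG hg hg'] at f
  rw [ent_Gb hg (by omega)] at f2 f3 f4
  rw [ent_bG (by omega) hg'] at g2 g3 g4
  simp only [prof, lev, t, t', u, u', v, v', if_true] at f2 f3 f4 g2 g3 g4
  obtain ⟨x1, x2, -, -, x3⟩ := f
  have c22 := (ent_TT t t').1 e2.2.2.1
  have c23 := (ent_TT t u').1 e2.2.2.2.1
  have c43 := (ent_TT v u').1 e4.2.2.2.1
  have c32 := (ent_TT u t').1 e3.2.2.1
  have c34 := (ent_TT u v').1 e3.2.2.2.2
  have n33 : ¬ Cmp K r3 c3 := fun k => e3.2.2.2.1 ((ent_TT u u').2 k)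
  have L2 := l2.2 (by omega)
  have L3 := l3.2 (by omega)
  rcases x3 with ⟨y1, y2, y3⟩ | ⟨y1, y2⟩
  · by_cases z1 : c3.s ≤ r2.s ∧ c3.s ≤ r4.s
    · exact n33 (low_loc b3 a2 a3 a4 L2 L3 z1.1 z1.2 c23.symm c43.symm).symm
    by_cases z2 : r3.s ≤ c2.s ∧ r3.s ≤ c4.s
    · exact n33 (low_loc a3 b2 b3 b4 (m2.2 (by omega)) (m3.2 (by omega)) z2.1 z2.2 c32 c34)
    have w1 : g.t = g.s := by omega
    have w2 : c3.s = g.s + 1 := by omega
    have w3 : r3.s = g.s + 1 := by omega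
    have w4 : lab K c3 = g.l := by
      rcases f3 with k | ⟨-, k | k⟩
      · omega
      · exact k
      · omega
    have w5 : lab K r3 = g'.l := by
      rcases g3 with k | ⟨-, k | k⟩
      · omega
      · exact k
      · omega
    refine n33 (child y1 w3 w2 (loc y1.le a2 a3 a4 L2 L3 (par_in w2 (by omega) (by omega) c23)
      (par_in w2 (by omega) (by omega) c43)) ?_).symm
    rw [w4, w5, x2, y3.resolve_left fun k => k w1.symm]
  · exact n (rare_of c22 (by omega) (by omega))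

lemma Copy.caseT (h : Copy K r0 r1 r2 r3 r4 c0 c1 c2 c3 c4) (n : r2.x ≠ c2.x) (g : r1.c = 2) :
    False := by
  obtain ⟨k1', -, -⟩ := h.symm.cls
  have t := h.r2T
  have t' := h.symm.r2T
  have u := h.r3T n
  have u' := h.symm.r3T n.symm
  have v := h.r4T n
  have val := @Copy.valid K _ _ _ _ _ _ _ _ _ _ h n r0 c0
  obtain ⟨⟨a0, a1, a2, a3, a4, a5⟩, ⟨b0, b1, b2, b3, b4, b5⟩, ⟨l0, l1, l2, l3⟩,
    ⟨m0, m1, m2, m3⟩, e0, e1, e2, e3, e4⟩ := h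
  have := l0.1; have := m0.1; have := m1.1
  have n33 : ¬ Cmp K r3 c3 := fun k => e3.2.2.2.1 ((ent_TT u u').2 k)
  rcases (by omega : c0.c = 0 ∨ c0.c = 1 ∨ c0.c = 2) with d | d | d
  · exact e1.1 ((ent_Y' d).2 (by omega))
  · rcases (by omega : r0.c = 0 ∨ r0.c = 1 ∨ r0.c = 2) with d' | d' | d'
    · exact (ent_Y d').1 e0.1 d
    · exact val d' d e0.1 e0.2.2.1 e0.2.2.2.1 e0.2.2.2.2 e2.1 e3.1 e4.1
    · rcases (by omega : c1.c = 1 ∨ c1.c = 2) with d1 | d1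
      · have p0 := e0.1; have p1 := e0.2.1; have p2 := e1.1; have p3 := e1.2.1
        have q0 := e2.1; have q1 := e2.2.1; have q2 := e3.1; have q3 := e3.2.1
        have q4 := e4.1; have q5 := e4.2.1
        rw [ent_bG (by omega) d] at p0 p2 q0 q2 q4
        rw [ent_bG (by omega) d1] at p1 p3 q1 q3 q5
        have D := prof_ne p0 p1
        have y2 := prof_two D q0 q1
        have y3 := prof_two D q2 q3
        have y4 := prof_two D q4 q5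
        simp only [lev, t, u, v, if_true] at y2 y3 y4
        have : r3.s = r2.s ∧ r4.s = r2.s := by omega
        exact n33 (same_lev b3 a2 this.1 this.2 (l2.2 (by omega)) (l3.2 (by omega))
          ((ent_TT t u').1 e2.2.2.2.1).symm ((ent_TT v u').1 e4.2.2.2.1).symm).symm
      · refine tree_lemma (i := c1) (x := r0) (j := r1) (A := c3) (Q := r3) a0 a3
          (l0.2 (by omega)) ((l1.2 (by omega)).trans (l2.2 (by omega)))
          (fun k => e0.2.1 ((ent_TT d' d1).2 k.symm)) ((ent_TT d' u').1 e0.2.2.2.1)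
          ((ent_TT u d1).1 e3.2.1).symm ((ent_TT g u').1 e1.2.2.2.1)
          ((ent_TT g d1).1 e1.2.1).symm fun k => n33 k.symm
  · have d1 : c1.c = 2 := by omega
    exact tree_lemma (i := r1) (x := c0) (j := c1) (A := r3) (Q := c3) b0 b3
      (m0.2 (by omega)) ((m1.2 (by omega)).trans (m2.2 (by omega)))
      (fun k => e1.1 ((ent_TT g d).2 k)) ((ent_TT u d).1 e3.1).symm
      ((ent_TT g u').1 e1.2.2.2.1) ((ent_TT u d1).1 e3.2.1).symm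
      ((ent_TT g d1).1 e1.2.1) n33

theorem Copy.rare (h : Copy K r0 r1 r2 r3 r4 c0 c1 c2 c3 c4) : r2.x = c2.x := by
  by_contra n
  have := h.cls.1
  have := h.symm.cls.1
  have := h.r2T
  have := h.symm.r2T
  have := h.le.2.1.1
  have := h.le'.2.1.1
  by_cases g : r1.c = 2
  · exact h.caseT n g
  by_cases g' : c1.c = 2
  · exact h.symm.caseT (Ne.symm n) g'
  exact h.valid n (by omega) (by omega) h.e1.2.1 h.e1.2.2.1 h.e1.2.2.2.1 h.e1.2.2.2.2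
    h.e2.2.1 h.e3.2.1 h.e4.2.1

end Vale.Agent.P037
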