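import Vale.Agent.P037.Ent
import Vale.Agent.P037.Defs

open Finset

namespace Vale.Agent.P037

abbrev Slot (K : ℕ) : Type := Fin 5 × Fin (K + 1) × Bool × Fin (K + 1) × Bool

abbrev Pt (K : ℕ) : Type := Slot K × Fin (2 ^ K)

variable {K : ℕ}

def toP (p : Pt K) : P := ⟨p.1.1, p.1.2.1, p.1.2.2.1, p.1.2.2.2.1, p.1.2.2.2.2, p.2⟩

def key (p : Pt K) : ℕ ×ₗ ℕ := toLex ((toP p).c, tk K (toP p))

lemma Le_of_key {p q : Pt K} (h : key p ≤ key q) : Le K (toP p) (toP q) := by
  rcases Prod.Lex.toLex_le_toLex.1 h with h | h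
  · exact ⟨h.le, fun e => absurd e h.ne⟩
  · exact ⟨h.1.le, fun _ => h.2⟩

variable {n : ℕ}

open Classical in
noncomputable def mat (e : Fin n ≃ Pt K) (r c : Fin n) : Bool :=
  decide (ent K (toP (e r)) (toP (e c)))

lemma mat_rare {e : Fin n ≃ Pt K} (he : Monotone (key ∘ e)) {r c : Fin 5 → Fin n}
    (h : IsCopy pat (mat e) r c) : (e (r 2)).2 = (e (c 2)).2 := by
  classical
  obtain ⟨h1, h2, h3⟩ := h
  have k : ∀ i j, ent K (toP (e (r i))) (toP (e (c j))) ↔ pat i j = true := fun i j => by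
    rw [← h3, mat, decide_eq_true_iff]
  have s : ∀ p : Pt K, (toP p).s ≤ K := fun p => Nat.lt_succ_iff.1 p.1.2.1.2
  have s' : ∀ p : Pt K, (toP p).c ≤ 4 := fun p => Nat.lt_succ_iff.1 p.1.1.2
  have l : ∀ {u : Fin 5 → Fin n}, StrictMono u → ∀ i j, i < j →
      Le K (toP (e (u i))) (toP (e (u j))) := fun hu i j h => Le_of_key (he (hu h).le)
  refine Fin.ext (Copy.rare (K := K) (r0 := toP (e (r 0))) (r1 := toP (e (r 1)))
    (r2 := toP (e (r 2))) (r3 := toP (e (r 3))) (r4 := toP (e (r 4))) (c0 := toP (e (c 0)))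
    (c1 := toP (e (c 1))) (c2 := toP (e (c 2))) (c3 := toP (e (c 3))) (c4 := toP (e (c 4)))
    ⟨⟨s _, s _, s _, s _, s _, s' _⟩, ⟨s _, s _, s _, s _, s _, s' _⟩,
      ⟨l h1 _ _ (by decide), l h1 _ _ (by decide), l h1 _ _ (by decide), l h1 _ _ (by decide)⟩,
      ⟨l h2 _ _ (by decide), l h2 _ _ (by decide), l h2 _ _ (by decide), l h2 _ _ (by decide)⟩,
      ?_, ?_, ?_, ?_, ?_⟩) <;> simp only [k] <;> decide

lemma copies_le {e : Fin n ≃ Pt K} (he : Monotone (key ∘ e)) :
    numCopies pat (mat e) * 2 ^ K ≤ n ^ 10 := by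
  classical
  have : n ^ 10 = (univ : Finset ((Fin 5 → Fin n) × (Fin 5 → Fin n))).card := by
    simp; ring
  rw [this, numCopies, ← card_fin (2 ^ K), ← card_product]
  refine card_le_card_of_injOn
    (fun q => (q.1.1, Function.update q.1.2 2 (e.symm ((e (q.1.2 2)).1, q.2))))
    (fun _ _ => mem_coe.2 (mem_univ _)) ?_
  rintro ⟨⟨r, c⟩, z⟩ h ⟨⟨r', c'⟩, z'⟩ h' E
  have a := mat_rare he (mem_filter.1 (mem_product.1 h).1).2
  have a' := mat_rare he (mem_filter.1 (mem_product.1 h').1).2
  obtain ⟨rfl, E⟩ := Prod.ext_iff.1 E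
  simp only at a a' E
  have b := congrFun E 2
  simp only [Function.update_self, EmbeddingLike.apply_eq_iff_eq, Prod.mk.injEq] at b
  obtain ⟨b, rfl⟩ := b
  have : c = c' := by
    funext j
    by_cases hj : j = 2
    · subst hj
      exact e.injective (Prod.ext b (a.symm.trans a'))
    · simpa [hj] using congrFun E j
  rw [this]

lemma good_triple {L : ℕ} (hL : 0 < L) (Bd : Finset (Fin L × Fin L)) (h : 3 * Bd.card < L ^ 2) :
    ∃ x y z, (y, x) ∉ Bd ∧ (x, z) ∉ Bd ∧ (y, z) ∉ Bd := by
  by_contra k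
  have k' : ∀ x y z : Fin L, 1 ≤ (if (y, x) ∈ Bd then 1 else 0) + (if (x, z) ∈ Bd then 1 else 0) +
      (if (y, z) ∈ Bd then 1 else 0) := by
    intro x y z
    by_contra g
    refine k ⟨x, y, z, ?_, ?_, ?_⟩ <;> intro m <;> simp [m] at g <;> omega
  have t : ∑ u : Fin L, ∑ v : Fin L, (if (u, v) ∈ Bd then 1 else 0) = Bd.card := by
    rw [← Fintype.sum_prod_type' fun u v => if (u, v) ∈ Bd then 1 else 0]
    simp
  have := sum_le_sum fun x (_ : x ∈ univ) => sum_le_sum fun y (_ : y ∈ univ) =>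
    sum_le_sum fun z (_ : z ∈ univ) => k' x y z
  simp only [sum_add_distrib, sum_const, card_fin, smul_eq_mul, ← mul_sum, t, mul_one] at this
  rw [sum_comm, t] at this
  have : L * (3 * Bd.card) < L * L ^ 2 := Nat.mul_lt_mul_of_pos_left h hL
  nlinarith

lemma not_free {e : Fin n ≃ Pt K} (he : Monotone (key ∘ e)) {B : Fin n → Fin n → Bool}
    (hB : numCopies pat B = 0) (p q : Fin 5 → Pt K)
    (hp : ∀ i : Fin 4, key (p i.castSucc) < key (p i.succ))
    (hq : ∀ i : Fin 4, key (q i.castSucc) < key (q i.succ))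
    (h : ∀ i j, B (e.symm (p i)) (e.symm (q j)) = pat i j) : False := by
  classical
  have m : ∀ u : Fin 5 → Pt K, (∀ i : Fin 4, key (u i.castSucc) < key (u i.succ)) →
      StrictMono fun i => e.symm (u i) := fun u hu =>
    Fin.strictMono_iff_lt_succ.2 fun i => he.reflect_lt (by simpa using hu i)
  rw [numCopies, card_eq_zero, filter_eq_empty_iff] at hB
  exact hB (mem_univ (fun i => e.symm (p i), fun j => e.symm (q j))) ⟨m p hp, m q hq, h⟩

def TT (x y : Fin (2 ^ K)) (s : Fin (K + 1)) (a : Bool) : Pt K :=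
  ((2, s, a, 0, false), if s.1 = 0 then y else x)

lemma TT_root (x y : Fin (2 ^ K)) {s : Fin (K + 1)} (h : s.1 = 0) (a : Bool) (q : Pt K) :
    PIn K (toP (TT x y s a)) (toP q) := by
  refine ⟨by simp [toP, TT, h], ?_⟩
  simp only [toP, TT, h, if_true, Nat.sub_zero]
  rw [Nat.div_eq_of_lt y.2, Nat.div_eq_of_lt q.2.2]

lemma TT_keys (x y : Fin (2 ^ K)) (s : Fin K) (a : Bool) :
    key (TT x y s.castSucc false) < key (TT x y s.succ a) ∧
      key (TT x y s.succ a) < key (TT x y s.castSucc true) := by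
  have i : ∀ b, PIn K (toP (TT x y s.castSucc b)) (toP (TT x y s.succ a)) := by
    intro b
    by_cases h : s.1 = 0
    · exact TT_root x y (by simpa using h) b _
    · exact ⟨by simp [toP, TT], by simp [toP, TT, h]⟩
  have hs : (toP (TT x y s.succ a)).s ≤ K := Nat.lt_succ_iff.1 s.succ.2
  have k1 := In.keys (i false) hs
  have k2 := In.keys (i true) hs
  have k3 := tk_cases (K := K) (toP (TT x y s.succ a))
  have k4 := Lk_lt_Rk (x := (toP (TT x y s.succ a)).x) hs
  have k5 : ∀ b, (toP (TT x y s.succ a)).s = (toP (TT x y s.castSucc b)).s + 1 := fun b => rfl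
  have := k5 false
  have := k5 true
  have k6 : tk K (toP (TT x y s.castSucc false)) = Lk K (toP (TT x y s.castSucc false)).s
    (toP (TT x y s.castSucc false)).x := rfl
  have k7 : tk K (toP (TT x y s.castSucc true)) = Rk K (toP (TT x y s.castSucc true)).s
    (toP (TT x y s.castSucc true)).x := rfl
  constructor <;> refine Prod.Lex.toLex_lt_toLex.2 (Or.inr ⟨rfl, ?_⟩) <;> simp only <;> omega

lemma key_lt {p q : Pt K} (h : p.1.1 < q.1.1) : key p < key q :=
  Prod.Lex.toLex_lt_toLex.2 (Or.inl h)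

lemma far {e : Fin n ≃ Pt K} (he : Monotone (key ∘ e)) (hK : 0 < K) {B : Fin n → Fin n → Bool}
    (hB : numCopies pat B = 0) : (2 ^ K) ^ 2 ≤ 3 * numDiff (mat e) B := by
  classical
  by_contra hlt
  obtain ⟨x, y, z, h1, h2, h3⟩ := good_triple (by positivity)
    ((univ.filter fun q : Fin n × Fin n => mat e q.1 q.2 ≠ B q.1 q.2).image
      fun q => ((e q.1).2, (e q.2).2))
    (lt_of_le_of_lt (Nat.mul_le_mul_left 3 card_image_le) (not_le.1 hlt))
  set b : Pt K → Pt K → Bool := fun p q => B (e.symm p) (e.symm q) with hb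
  have g : ∀ p q : Pt K, (p.2 = y ∧ (q.2 = x ∨ q.2 = z)) ∨ (p.2 = x ∧ q.2 = z) →
      b p q = decide (ent K (toP p) (toP q)) := by
    intro p q h
    by_contra k
    have : (p.2, q.2) ∈ ((univ.filter fun q : Fin n × Fin n => mat e q.1 q.2 ≠ B q.1 q.2).image
        fun q => ((e q.1).2, (e q.2).2)) :=
      mem_image.2 ⟨(e.symm p, e.symm q), mem_filter.2 ⟨mem_univ _, fun k' => k (by
        simp only [mat, Equiv.apply_symm_apply] at k'
        exact k'.symm)⟩, by simp⟩
    rcases h with ⟨a, c | c⟩ | ⟨a, c⟩ <;> rw [a, c] at this <;> contradiction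
  have g0 : ∀ σ τ, b (σ, y) (τ, z) = decide (ent K (toP (σ, y)) (toP (τ, z))) := fun σ τ =>
    g _ _ (by simp)
  have g1 : ∀ σ t a, b (σ, y) (TT x z t a) = decide (ent K (toP (σ, y)) (toP (TT x z t a))) :=
    fun σ t a => g _ _ (by simp only [TT]; split_ifs <;> simp)
  have g2 : ∀ τ t a, b (TT x y t a) (τ, z) = decide (ent K (toP (TT x y t a)) (toP (τ, z))) :=
    fun σ t a => g _ _ (by simp only [TT]; split_ifs <;> simp)
  have E : ∀ (s t : Fin (K + 1)) (a a' : Bool), b (TT x y s a) (TT x z t a') = true := by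
    intro s
    induction s using Fin.induction with
    | zero =>
      intro t a a'
      refine (g1 (2, 0, a, 0, false) t a').trans (decide_eq_true ?_)
      exact (ent_TT rfl rfl).2 (Or.inl (TT_root x y (s := 0) rfl a _))
    | succ s ihs =>
      intro t
      induction t using Fin.induction with
      | zero =>
        intro a a'
        refine (g2 (2, 0, a', 0, false) s.succ a).trans (decide_eq_true ?_)
        exact (ent_TT rfl rfl).2 (Or.inr (TT_root x z (s := 0) rfl a' _))
      | succ t iht =>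
        intro a a'
        by_contra k
        have k : b (TT x y s.succ a) (TT x z t.succ a') = false := by simpa using k
        set la := lab K (toP (TT x y s.succ a)) with hla
        set mu := lab K (toP (TT x z t.succ a')) with hmu
        have al : s.1 ≠ t.1 ∨ la = mu := by
          by_cases h : s = t
          · subst h; exact Or.inr rfl
          · exact Or.inl fun h' => h (Fin.ext h')
        refine not_free he hB
          ![((0, 0, false, 0, false), y), ((1, t.castSucc, mu, s.castSucc, la), y),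
            TT x y s.castSucc false, TT x y s.succ a, TT x y s.castSucc true]
          ![((0, 0, false, 0, false), z), ((1, s.castSucc, la, t.castSucc, mu), z),
            TT x z t.castSucc false, TT x z t.succ a', TT x z t.castSucc true] ?_ ?_ ?_
        · intro i
          fin_cases i
          exacts [key_lt (by simp), key_lt (by simp [TT]), (TT_keys x y s a).1, (TT_keys x y s a).2]
        · intro i
          fin_cases i
          exacts [key_lt (by simp), key_lt (by simp [TT]), (TT_keys x z t a').1,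
            (TT_keys x z t a').2]
        · intro i j
          change b _ _ = _
          fin_cases i <;> fin_cases j <;>
            simp only [Fin.zero_eta, Fin.mk_one, Fin.reduceFinMk, Matrix.cons_val, g0, g1, g2,
              ihs, iht, k] <;>
            first | rfl | (simp [ent, toP, TT, pat, gg, prof, lev]; try tauto)
  refine not_free he hB
    ![((0, 0, false, 0, false), y), ((1, Fin.last K, false, Fin.last K, false), y),
      TT x y (Fin.last K) false, ((3, 0, false, 0, false), y), ((4, 0, false, 0, false), y)]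
    ![((0, 0, false, 0, false), z), ((1, Fin.last K, false, Fin.last K, false), z),
      TT x z (Fin.last K) false, ((3, 0, false, 0, false), z), ((4, 0, false, 0, false), z)]
    ?_ ?_ ?_
  · intro i
    fin_cases i <;> exact key_lt (by simp [TT])
  · intro i
    fin_cases i <;> exact key_lt (by simp [TT])
  · intro i j
    change b _ _ = _
    fin_cases i <;> fin_cases j <;>
      simp only [Fin.zero_eta, Fin.mk_one, Fin.reduceFinMk, Matrix.cons_val, g0, g1, g2, E] <;>
      first | rfl | simp [ent, toP, TT, pat, gg, prof, lev, bb]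

theorem counter (c C : ℝ) (hc : 0 < c) (hC : 0 < C) :
    ∃ (n : ℕ) (ε : ℝ) (A : Fin n → Fin n → Bool), 1 ≤ n ∧ 0 < ε ∧ ε < 1 ∧ ε ≤ distFree pat A ∧
      (numCopies pat A : ℝ) < c * ε ^ C * (n : ℝ) ^ (2 * 5) := by
  classical
  obtain ⟨N, hN⟩ := exists_nat_ge C
  have lim := tendsto_pow_const_div_const_pow_of_one_lt (4 * N) (r := 2) one_lt_two
  obtain ⟨j, hj, hj2⟩ := ((lim.eventually (gt_mem_nhds
    (show (0 : ℝ) < c / (2 * 1200 ^ N) by positivity))).and (Filter.eventually_ge_atTop 2)).exists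
  obtain ⟨K, rfl⟩ : ∃ K, j = K + 1 := ⟨j - 1, by omega⟩
  obtain ⟨e, he⟩ : ∃ e : Fin (Fintype.card (Pt K)) ≃ Pt K, Monotone (key ∘ e) :=
    ⟨(Tuple.sort (key ∘ (Fintype.equivFin (Pt K)).symm)).trans (Fintype.equivFin (Pt K)).symm,
      Tuple.monotone_sort (key ∘ (Fintype.equivFin (Pt K)).symm)⟩
  have hn : Fintype.card (Pt K) = 20 * (K + 1) ^ 2 * 2 ^ K := by simp; ring
  generalize Fintype.card (Pt K) = n at e he hn
  have hn' : (n : ℝ) = 20 * (K + 1) ^ 2 * 2 ^ K := by rw [hn]; push_cast; ring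
  have n0 : 0 < n := by rw [hn]; positivity
  have k1 : (1 : ℝ) ≤ (K + 1) ^ 4 := one_le_pow₀ (by linarith [Nat.cast_nonneg (α := ℝ) K])
  have e1 : (1 : ℝ) / (1200 * (K + 1) ^ 4) < 1 := by
    rw [div_lt_one (by positivity)]; linarith
  refine ⟨n, 1 / (1200 * (K + 1) ^ 4), mat e, n0, by positivity, e1, ?_, ?_⟩
  · have ne : {d : ℕ | ∃ B : Fin n → Fin n → Bool, numCopies pat B = 0 ∧
        d = numDiff (mat e) B}.Nonempty := by
      refine ⟨_, fun _ _ => false, ?_, rfl⟩
      rw [numCopies, card_eq_zero, filter_eq_empty_iff]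
      intro q _ h
      exact absurd (h.2.2 0 0) (by simp [pat])
    obtain ⟨B, hB, hd⟩ := Nat.sInf_mem ne
    have := far he (by omega) hB
    rw [distFree, hd, le_div_iff₀ (by positivity), hn']
    have : ((2 : ℝ) ^ K) ^ 2 ≤ 3 * numDiff (mat e) B := by exact_mod_cast this
    calc _ = ((2 : ℝ) ^ K) ^ 2 / 3 := by field_simp; norm_num
      _ ≤ _ := by linarith
  · have a : (numCopies pat (mat e) : ℝ) * 2 ^ K ≤ n ^ 10 := by exact_mod_cast copies_le he
    have b : (1 / (1200 * (K + 1) ^ 4) : ℝ) ^ (N : ℝ) ≤ (1 / (1200 * (K + 1) ^ 4)) ^ C :=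
      Real.rpow_le_rpow_of_exponent_ge (by positivity) e1.le hN
    rw [Real.rpow_natCast] at b
    have d : 1 / 2 ^ K < c * (1 / (1200 * (K + 1) ^ 4) : ℝ) ^ N := by
      push_cast at hj
      rw [div_lt_div_iff₀ (by positivity) (by positivity)] at hj
      rw [div_pow, one_pow, mul_pow, ← pow_mul, mul_one_div,
        div_lt_div_iff₀ (by positivity) (by positivity)]
      rw [pow_succ] at hj
      linarith
    calc (numCopies pat (mat e) : ℝ) ≤ 1 / 2 ^ K * n ^ 10 := by
          rw [one_div_mul_eq_div, le_div_iff₀ (by positivity)]; exact a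
      _ < c * (1 / (1200 * (K + 1) ^ 4) : ℝ) ^ N * n ^ 10 := by gcongr
      _ ≤ _ := by gcongr

end Vale.Agent.P037
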