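import Mathlib

namespace Vale.Agent.P037

structure P where
  c : ℕ
  s : ℕ
  l : Bool
  t : ℕ
  m : Bool
  x : ℕ

variable {K : ℕ}

def In (K s x t y : ℕ) : Prop := s ≤ t ∧ x / 2 ^ (K - s) = y / 2 ^ (K - s)

lemma div_up {s t x y : ℕ} (h : s ≤ t) (e : x / 2 ^ (K - t) = y / 2 ^ (K - t)) :
    x / 2 ^ (K - s) = y / 2 ^ (K - s) := by
  obtain ⟨j, hj⟩ : ∃ j, K - s = K - t + j := ⟨K - s - (K - t), by omega⟩
  rw [hj, pow_add, ← Nat.div_div_eq_div_mul, ← Nat.div_div_eq_div_mul, e]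

lemma In.refl (s x : ℕ) : In K s x s x := ⟨le_rfl, rfl⟩

lemma In.trans {s x t y u z : ℕ} (a : In K s x t y) (b : In K t y u z) : In K s x u z :=
  ⟨a.1.trans b.1, a.2.trans (div_up a.1 b.2)⟩

lemma In.chain {s x t y u z : ℕ} (a : In K s x u z) (b : In K t y u z) :
    In K s x t y ∨ In K t y s x := by
  rcases le_total s t with h | h
  · exact Or.inl ⟨h, a.2.trans (div_up h b.2).symm⟩
  · exact Or.inr ⟨h, b.2.trans (div_up h a.2).symm⟩

lemma In.symm {s x t y : ℕ} (a : In K s x t y) (h : t ≤ s) : In K t y s x := by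
  obtain rfl : s = t := le_antisymm a.1 h
  exact ⟨le_rfl, a.2.symm⟩

def Lk (K s x : ℕ) : ℕ := (2 * K + 2) * (x / 2 ^ (K - s) * 2 ^ (K - s)) + s

def Rk (K s x : ℕ) : ℕ :=
  (2 * K + 2) * ((x / 2 ^ (K - s) + 1) * 2 ^ (K - s) - 1) + (2 * K + 1 - s)

lemma In.keys {s x t y : ℕ} (a : In K s x t y) (ht : t ≤ K) :
    Lk K s x + (t - s) ≤ Lk K t y ∧ Rk K t y + (t - s) ≤ Rk K s x := by
  obtain ⟨h, e⟩ := a
  obtain ⟨j, hj⟩ : ∃ j, K - s = K - t + j := ⟨K - s - (K - t), by omega⟩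
  unfold Lk Rk
  rw [e, hj, pow_add, ← Nat.div_div_eq_div_mul]
  generalize y / 2 ^ (K - t) = v
  generalize 2 ^ (K - t) = m
  have hp : 0 < 2 ^ j := by positivity
  generalize 2 ^ j = q at *
  have a1 : v / q * (m * q) ≤ v * m := by
    have := Nat.div_mul_le_self v q
    calc v / q * (m * q) = v / q * q * m := by ring
      _ ≤ v * m := Nat.mul_le_mul_right _ this
  have a2 : (v + 1) * m ≤ (v / q + 1) * (m * q) := by
    have : v + 1 ≤ (v / q + 1) * q := by
      have := Nat.lt_div_mul_add (a := v) hp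
      rw [add_mul, one_mul]; omega
    calc (v + 1) * m ≤ (v / q + 1) * q * m := Nat.mul_le_mul_right _ this
      _ = _ := by ring
  have b1 := Nat.mul_le_mul_left (2 * K + 2) a1
  have b2 := Nat.mul_le_mul_left (2 * K + 2) (Nat.sub_le_sub_right a2 1)
  constructor <;> omega

lemma keys_lt {s x y : ℕ} (h : x / 2 ^ (K - s) < y / 2 ^ (K - s)) : Rk K s x < Lk K s y := by
  unfold Lk Rk
  have hp : 0 < 2 ^ (K - s) := by positivity
  generalize x / 2 ^ (K - s) = u at *
  generalize y / 2 ^ (K - s) = v at *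
  generalize 2 ^ (K - s) = m at *
  have a : (u + 1) * m ≤ v * m := Nat.mul_le_mul_right _ h
  have b : 0 < (u + 1) * m := by positivity
  obtain ⟨w, hw⟩ : ∃ w, (u + 1) * m = w + 1 := ⟨(u + 1) * m - 1, by omega⟩
  have c := Nat.mul_le_mul_left (2 * K + 2) a
  rw [hw, mul_add, mul_one] at c
  rw [hw, Nat.add_sub_cancel]
  omega

lemma Lk_lt_Rk {s x : ℕ} (h : s ≤ K) : Lk K s x < Rk K s x := by
  unfold Lk Rk
  have hp : 0 < 2 ^ (K - s) := by positivity
  generalize x / 2 ^ (K - s) = u at *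
  generalize 2 ^ (K - s) = m at *
  have a : u * m ≤ (u + 1) * m - 1 := by rw [add_mul, one_mul]; omega
  have c := Nat.mul_le_mul_left (2 * K + 2) a
  omega

def tk (K : ℕ) (p : P) : ℕ := if p.l = true then Rk K p.s p.x else Lk K p.s p.x

def PIn (K : ℕ) (p q : P) : Prop := In K p.s p.x q.s q.x

lemma tk_cases (p : P) : tk K p = Lk K p.s p.x ∨ tk K p = Rk K p.s p.x := by
  unfold tk; split_ifs <;> simp

lemma in_of_keys {s x : ℕ} {b : P} (hs : s ≤ K) (hb : b.s ≤ K) (h1 : Lk K s x ≤ tk K b)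
    (h2 : tk K b ≤ Rk K s x) : In K s x b.s b.x := by
  have c := tk_cases (K := K) b
  have d := Lk_lt_Rk (x := b.x) hb
  obtain ⟨l, hl1, hl2, hl⟩ : ∃ l, l ≤ s ∧ l ≤ b.s ∧ (l = s ∨ l = b.s) :=
    ⟨min s b.s, by omega, by omega, by omega⟩
  have e1 := In.keys (K := K) (s := l) (x := x) (y := x) ⟨hl1, rfl⟩ hs
  have e2 := In.keys (K := K) (s := l) (x := b.x) (y := b.x) ⟨hl2, rfl⟩ hb
  rcases lt_trichotomy (x / 2 ^ (K - l)) (b.x / 2 ^ (K - l)) with h | h | h
  · have := keys_lt h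
    omega
  · by_cases h' : s ≤ b.s
    · obtain rfl : l = s := by omega
      exact ⟨h', h⟩
    · obtain rfl : l = b.s := by omega
      have := In.keys (K := K) ⟨hl1, h.symm⟩ hs
      omega
  · have := keys_lt h
    omega

lemma loc {s x : ℕ} {a b c : P} (hs : s ≤ K) (ha : a.s ≤ K) (hb : b.s ≤ K) (hc : c.s ≤ K)
    (h1 : tk K a ≤ tk K b) (h2 : tk K b ≤ tk K c) (i1 : In K s x a.s a.x) (i2 : In K s x c.s c.x) :
    In K s x b.s b.x := by
  have := tk_cases (K := K) a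
  have := tk_cases (K := K) c
  have := i1.keys ha
  have := i2.keys hc
  have := Lk_lt_Rk (x := a.x) ha
  have := Lk_lt_Rk (x := c.x) hc
  exact in_of_keys hs hb (by omega) (by omega)

lemma boundary {a b c : P} (ha : a.s ≤ K) (hc : c.s ≤ K)
    (h1 : tk K a ≤ tk K b) (h2 : tk K b ≤ tk K c) (i1 : PIn K b a) (i2 : PIn K b c)
    (n1 : ¬ PIn K a b) (n2 : ¬ PIn K c b) : False := by
  have l1 : b.s < a.s := not_le.1 fun h => n1 (i1.symm h)
  have l2 : b.s < c.s := not_le.1 fun h => n2 (i2.symm h)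
  have := tk_cases (K := K) a
  have := tk_cases (K := K) b
  have := tk_cases (K := K) c
  have := In.keys i1 ha
  have := In.keys i2 hc
  have := Lk_lt_Rk (x := a.x) ha
  have := Lk_lt_Rk (x := c.x) hc
  omega

def Cmp (K : ℕ) (p q : P) : Prop := PIn K p q ∨ PIn K q p

lemma Cmp.symm {p q : P} (h : Cmp K p q) : Cmp K q p := Or.symm h

lemma PIn.trans {p q r : P} (a : PIn K p q) (b : PIn K q r) : PIn K p r := In.trans a b

lemma PIn.chain {p q r : P} (a : PIn K p r) (b : PIn K q r) : Cmp K p q := In.chain a b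

/-- localisation from below -/
lemma low_loc {u a b c : P} (hu : u.s ≤ K) (ha : a.s ≤ K) (hb : b.s ≤ K) (hc : c.s ≤ K)
    (h1 : tk K a ≤ tk K b) (h2 : tk K b ≤ tk K c) (l1 : u.s ≤ a.s) (l2 : u.s ≤ c.s)
    (c1 : Cmp K u a) (c2 : Cmp K u c) : Cmp K u b :=
  Or.inl (loc hu ha hb hc h1 h2 (c1.elim id fun h => In.symm h l1)
    (c2.elim id fun h => In.symm h l2))

lemma same_lev {u a b c : P} (hu : u.s ≤ K) (ha : a.s ≤ K) (hb : b.s = a.s) (hc : c.s = a.s)
    (h1 : tk K a ≤ tk K b) (h2 : tk K b ≤ tk K c) (c1 : Cmp K u a) (c2 : Cmp K u c) :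
    Cmp K u b := by
  rcases le_total u.s a.s with h | h
  · exact low_loc hu ha (by omega) (by omega) h1 h2 h (by omega) c1 c2
  · have i1 : PIn K a u := c1.elim (fun i => In.symm i h) id
    have i2 : PIn K c u := c2.elim (fun i => In.symm i (by omega)) id
    have i3 : PIn K a c := (i1.chain i2).elim id fun i => In.symm i (by omega)
    have i4 : PIn K a b := loc ha ha (by omega) (by omega) h1 h2 (In.refl _ _) i3
    exact Or.inr (PIn.trans (In.symm i4 (by omega)) i1)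

lemma tree_lemma {i x j A Q : P} (hx : x.s ≤ K) (hQ : Q.s ≤ K) (h1 : tk K x ≤ tk K j)
    (h2 : tk K j ≤ tk K Q) (ix : ¬ Cmp K i x) (xA : Cmp K x A) (iQ : Cmp K i Q) (jA : Cmp K j A)
    (ij : Cmp K i j) (AQ : ¬ Cmp K A Q) : False := by
  have iA : ¬ PIn K i A := fun h => ix (xA.elim (h.chain ·) fun g => Or.inl (h.trans g))
  by_cases jQ : PIn K j Q
  · have jA' : PIn K j A := jA.elim id fun g => absurd (Or.inl (g.trans jQ)) AQ
    have jx : Cmp K j x := xA.elim (jA'.chain ·) fun g => Or.inl (jA'.trans g)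
    have xj : ¬ PIn K x j := fun g => ix (iQ.elim (·.chain (g.trans jQ))
      fun k => Or.inr ((g.trans jQ).trans k))
    exact boundary hx hQ h1 h2 (jx.resolve_right xj) jQ xj fun g => AQ (Or.inr (g.trans jA'))
  · rcases ij with g | g
    · rcases jA with k | k
      · exact iA (g.trans k)
      · have Ai := (g.chain k).resolve_left iA
        exact AQ (iQ.elim (fun k => Or.inl (Ai.trans k)) (Ai.chain ·))
    · rcases iQ with k | k
      · exact jQ (g.trans k)
      · have Qj := (g.chain k).resolve_left jQ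
        exact AQ (jA.elim (fun k => Or.inr (Qj.trans k)) (·.chain Qj))

def lab (K : ℕ) (p : P) : Bool := decide (p.x / 2 ^ (K - p.s) % 2 = 1)

lemma child {s : ℕ} {a q : P} (hs : s < K) (ha : a.s = s + 1) (hq : q.s = s + 1)
    (i : In K s q.x a.s a.x) (hl : lab K a = lab K q) : Cmp K q a := by
  refine Or.inl ⟨by omega, ?_⟩
  have e := i.2
  simp only [lab, ha, hq, decide_eq_decide] at hl ⊢
  rw [show K - s = K - (s + 1) + 1 by omega, pow_succ, ← Nat.div_div_eq_div_mul,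
    ← Nat.div_div_eq_div_mul] at e
  omega

lemma par_in {s : ℕ} {o q : P} (hq : q.s = s + 1) (h1 : s ≤ o.s) (h2 : o.s ≤ s + 1)
    (c : Cmp K o q) : In K s q.x o.s o.x := by
  have i : PIn K o q := c.elim id fun g => In.symm g (by omega)
  exact ⟨h1, (div_up h1 i.2).symm⟩

end Vale.Agent.P037
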